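import Mathlib

/-! Lemma L (interface of helper16, note #17040): in a cyclic extension of odd degree `n`,
if `q ^ n` lies in the base field then `N(q) = q ^ n`. -/

open Polynomial

namespace P025H511

/-- Prime degree (odd): `q ^ p ∈ k` implies `N(q) = q ^ p`. No Galois hypothesis. -/
theorem norm_of_pow_prime {k K : Type*} [Field k] [Field K] [Algebra k K]
    [FiniteDimensional k K] (p : ℕ) (hp : p.Prime) (hn : Module.finrank k K = p)
    (hodd : Odd p) (q : K) (a : k) (hq : q ^ p = algebraMap k K a) :
    Algebra.norm k q = a := by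
  classical
  have hint : IsIntegral k q := Algebra.IsIntegral.isIntegral q
  -- either `q ∈ k` or `k(q) = K`
  have hdvd : (minpoly k q).natDegree ∣ p := by
    rw [← hn]
    exact minpoly.degree_dvd hint
  have hpoly : (minpoly k q) ∣ (X ^ p - C a) := by
    apply minpoly.dvd
    simp [hq]
  rcases (Nat.dvd_prime hp).1 hdvd with h1 | h1
  · -- q in k
    have hmem : q ∈ (algebraMap k K).range := by
      rw [← minpoly.natDegree_eq_one_iff]
      exact h1
    obtain ⟨b, rfl⟩ := hmem
    rw [Algebra.norm_algebraMap, hn]
    have : algebraMap k K (b ^ p) = algebraMap k K a := by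
      rw [map_pow]; exact hq
    exact (algebraMap k K).injective this
  · -- degree p
    have hmon : (X ^ p - C a : k[X]).Monic := monic_X_pow_sub_C a hp.ne_zero
    have heq : X ^ p - C a = minpoly k q := by
      apply Polynomial.eq_of_monic_of_dvd_of_natDegree_le (minpoly.monic hint) hmon hpoly
      rw [natDegree_X_pow_sub_C, h1]
    rw [Algebra.norm_eq_norm_adjoin k q]
    have hfin : Module.finrank k (IntermediateField.adjoin k {q}) = p := by
      rw [IntermediateField.adjoin.finrank hint, h1]
    have hone : Module.finrank (IntermediateField.adjoin k {q}) K = 1 := by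
      have := Module.finrank_mul_finrank k (IntermediateField.adjoin k {q}) K
      rw [hfin, hn] at this
      exact Nat.eq_of_mul_eq_mul_left hp.pos (by rw [this, mul_one])
    rw [hone, pow_one]
    have h2 := Algebra.PowerBasis.norm_gen_eq_coeff_zero_minpoly
      (IntermediateField.adjoin.powerBasis hint)
    rw [IntermediateField.adjoin.powerBasis_gen, IntermediateField.adjoin.powerBasis_dim,
      h1, IntermediateField.minpoly_gen, ← heq] at h2
    rw [h2]
    have hc : (X ^ p - C a : k[X]).coeff 0 = - a := by
      simp [coeff_X_pow, hp.ne_zero.symm]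
    rw [hc, hodd.neg_one_pow]
    ring

theorem norm_of_pow_aux {k : Type*} [Field k] : ∀ (n : ℕ) {K : Type*} [Field K] [Algebra k K]
    [FiniteDimensional k K] [IsGalois k K] [IsCyclic Gal(K/k)]
    (_ : Module.finrank k K = n) (_ : Odd n) (q : K) (a : k)
    (_ : q ^ n = algebraMap k K a), Algebra.norm k q = a := by
  intro n
  induction n using Nat.strong_induction_on with
  | _ n ih =>
  intro K _ _ _ _ _ hn hodd q a hq
  by_cases h1 : n = 1
  · subst h1
    have hb : q ∈ (⊥ : IntermediateField k K) := by
      rw [IntermediateField.mem_bot]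
      exact ⟨a, by rw [← hq, pow_one]⟩
    rw [IntermediateField.mem_bot] at hb
    obtain ⟨b, rfl⟩ := hb
    rw [Algebra.norm_algebraMap, hn]
    have : algebraMap k K (b ^ 1) = algebraMap k K a := by
      rw [map_pow]; exact hq
    exact (algebraMap k K).injective this
  · obtain ⟨p, hp, hpn⟩ := Nat.exists_prime_and_dvd h1
    obtain ⟨m, rfl⟩ := hpn
    have hcard : Nat.card Gal(K/k) = p * m := by
      rw [IsGalois.card_aut_eq_finrank, hn]
    have : Fact p.Prime := ⟨hp⟩
    obtain ⟨g, hg⟩ := exists_prime_orderOf_dvd_card' (G := Gal(K/k)) p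
      (by rw [hcard]; exact dvd_mul_right _ _)
    have hcomm : ∀ x y : Gal(K/k), x * y = y * x := by
      obtain ⟨c, hc⟩ := IsCyclic.exists_generator (α := Gal(K/k))
      intro x y
      obtain ⟨i, rfl⟩ := Subgroup.mem_zpowers_iff.1 (hc x)
      obtain ⟨j, rfl⟩ := Subgroup.mem_zpowers_iff.1 (hc y)
      rw [← zpow_add, ← zpow_add, add_comm]
    have hnorm : (Subgroup.zpowers g).Normal := by
      refine ⟨fun x hx y => ?_⟩
      rw [hcomm y x, mul_assoc, mul_inv_cancel, mul_one]
      exact hx
    have hFK : Module.finrank (IntermediateField.fixedField (Subgroup.zpowers g)) K = p := by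
      rw [IntermediateField.finrank_fixedField_eq_card, Nat.card_zpowers, hg]
    have hmul := Module.finrank_mul_finrank k
      (IntermediateField.fixedField (Subgroup.zpowers g)) K
    have hkF : Module.finrank k (IntermediateField.fixedField (Subgroup.zpowers g)) = m := by
      rw [hFK, hn, mul_comm] at hmul
      exact Nat.eq_of_mul_eq_mul_left hp.pos hmul
    have hcyc : IsCyclic Gal(IntermediateField.fixedField (Subgroup.zpowers g)/k) := by
      have hsurj := AlgEquiv.restrictNormalHom_surjective
        (F := k) (K₁ := IntermediateField.fixedField (Subgroup.zpowers g)) K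
      exact isCyclic_of_surjective _ hsurj
    have hpodd : Odd p := (Nat.odd_mul.1 hodd).1
    have hmodd : Odd m := (Nat.odd_mul.1 hodd).2
    have hm : m < p * m := by
      have hmpos : 0 < m := hmodd.pos
      nlinarith [hp.two_le]
    have h2 : Algebra.norm (IntermediateField.fixedField (Subgroup.zpowers g)) (q ^ m)
        = algebraMap k (IntermediateField.fixedField (Subgroup.zpowers g)) a := by
      apply norm_of_pow_prime p hp hFK hpodd
      rw [← pow_mul, mul_comm m p, hq]
      rfl
    rw [map_pow] at h2
    have h3 := ih m hm hkF hmodd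
      (Algebra.norm (IntermediateField.fixedField (Subgroup.zpowers g)) q) a h2
    rw [← h3, Algebra.norm_norm]

/-- Lemma L: cyclic of odd degree `n`, `q ^ n = a ∈ k` implies `N(q) = a`. -/
theorem norm_of_pow {k k₁ : Type*} [Field k] [Field k₁] [Algebra k k₁]
    [FiniteDimensional k k₁] [IsGalois k k₁] [IsCyclic Gal(k₁/k)] (n : ℕ)
    (hn : Module.finrank k k₁ = n) (hodd : Odd n) (q : k₁) (a : k)
    (hq : q ^ n = algebraMap k k₁ a) : Algebra.norm k q = a :=
  norm_of_pow_aux n hn hodd q a hq

end P025H511
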