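import Vale.Agent.P025.H16.NormTors
import Vale.Agent.P025.H16.DivNorm

/-! # Sections and the curves `b y ^ n = N(g(x))`, `k₁ / k` cyclic of degree `n` -/

open IntermediateField

namespace P025H511

universe u v w

open Polynomial P025H641 P025H16

/-- The telescoping product behind the curves `b y ^ n = N(g(x))`. -/
lemma prod_tele {M : Type*} [CommMonoid M] (n : ℕ) (a : ℕ → M) :
    (∏ i ∈ Finset.range n, a i) * ∏ j ∈ Finset.range n, a j ^ (n - 1 - j) =
      a 0 ^ n * ∏ j ∈ Finset.range n, a (j + 1) ^ (n - 1 - j) := by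
  have h1 := Finset.prod_range_succ (fun j => a j ^ (n - j)) n
  have h2 := Finset.prod_range_succ' (fun j => a j ^ (n - j)) n
  rw [Nat.sub_self, pow_zero, mul_one] at h1
  rw [Nat.sub_zero] at h2
  have h3 : (∏ i ∈ Finset.range n, a i) * ∏ j ∈ Finset.range n, a j ^ (n - 1 - j) =
      ∏ j ∈ Finset.range n, a j ^ (n - j) := by
    rw [← Finset.prod_mul_distrib]
    refine Finset.prod_congr rfl (fun j hj => ?_)
    rw [← pow_succ']
    congr 1
    have := Finset.mem_range.1 hj
    omega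
  have h4 : ∏ j ∈ Finset.range n, a (j + 1) ^ (n - 1 - j) =
      ∏ j ∈ Finset.range n, a (j + 1) ^ (n - (j + 1)) := by
    refine Finset.prod_congr rfl (fun j hj => ?_)
    congr 1
    omega
  rw [h3, h4, ← h1, h2, mul_comm]

/-- Divisibility of the telescoping product. -/
lemma isDivisible_tele {k : Type u} [Field k] {F : Type w} [Field F] [Algebra k F]
    {k₁ : Type v} [Field k₁] (ι : k₁ →+* F) (hι : ∀ c, IsIntegral k (ι c)) {n : ℕ} (d : ℕ)
    (G G' : ℕ → k₁[X]) (hcop : ∀ j, IsCoprime (G j) (G' j)) (hG0 : ∀ j, G j ≠ 0)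
    (hd : ∀ j, (G j).natDegree = d) (hpar : Even ((n - 1) * d)) (x b y : F)
    (hb : IsIntegral k b) (hb0 : b ≠ 0)
    (h1 : ∀ j, eval₂ ι x (G j) * eval₂ ι x (G' j) = b * y ^ n) :
    IsDivisible n k (eval₂ ι x (∏ j ∈ Finset.range n, G j ^ (n - 1 - j))) := by
  intro V hV
  have hbv := hV.val_alg hb hb0
  rcases le_or_gt (V.valuation x) 1 with hx | hx
  · choose e he using fun j => val_eval_factor ι hV hι (G j) (G' j) (hcop j) x b y hbv (h1 j) hx
    refine ⟨∏ j ∈ Finset.range n, e j ^ (n - 1 - j), ?_⟩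
    rw [eval₂_finsetProd, map_prod, map_prod, ← Finset.prod_pow]
    refine Finset.prod_congr rfl (fun j _ => ?_)
    rw [eval₂_pow, map_pow, map_pow, he, ← pow_mul, ← pow_mul, mul_comm]
  · obtain ⟨r, hr⟩ := hpar
    have hsum : d * ∑ j ∈ Finset.range n, (n - 1 - j) = r * n := by
      have h2 : (∑ j ∈ Finset.range n, (n - 1 - j)) * 2 = n * (n - 1) := by
        rw [Finset.sum_range_reflect (fun j => j) n]
        exact Finset.sum_range_id_mul_two n
      have h3 : (d * ∑ j ∈ Finset.range n, (n - 1 - j)) * 2 = (r * n) * 2 := by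
        rw [mul_assoc, h2]
        calc d * (n * (n - 1)) = ((n - 1) * d) * n := by ring
          _ = _ := by rw [hr]; ring
      omega
    refine ⟨x ^ r, ?_⟩
    rw [eval₂_finsetProd, map_prod, map_pow, ← pow_mul, ← hsum, Finset.mul_sum,
      ← Finset.prod_pow_eq_pow_sum]
    refine Finset.prod_congr rfl (fun j _ => ?_)
    rw [eval₂_pow, map_pow, val_eval_pole ι hV hι (G j) (hG0 j) x hx, hd, pow_mul]

/-- **Sections and the curves `b y ^ n = N(g(x))`**, `k₁ / k` cyclic of degree `n`: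
`b` is a norm from `k₁`. -/
theorem norm_curve_section_cyc {k : Type u} {k₁ : Type v} {K : Type w} [Field k] [CharZero k]
    [Field k₁] [Field K] [Algebra k k₁] [Algebra k K] [FiniteDimensional k k₁] [IsGalois k k₁]
    [IsCyclic Gal(k₁/k)] (n : ℕ) (hn : Module.finrank k k₁ = n) (s : Section k K) (b : k)
    (hb0 : b ≠ 0) (f : k[X]) (g : k₁[X]) (hf : f.map (algebraMap k k₁) =
      ∏ᶠ σ : Gal(k₁/k), g.map (σ : k₁ →+* k₁)) (hsq : Squarefree f)
    (hpar : Even ((n - 1) * g.natDegree)) (x y : K) (hy : y ≠ 0)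
    (h : algebraMap k K b * y ^ n = aeval x f) :
    ∃ z₁ : k₁, Algebra.norm k z₁ = b := by
  classical
  have hn0 : 0 < n := by rw [← hn]; exact Module.finrank_pos
  have hnk : (n : k) ≠ 0 := by exact_mod_cast hn0.ne'
  have hs := s.isSection
  have hΩc : IsAlgClosed (constClosure k K) :=
    (inferInstance : IsAlgClosure k (constClosure k K)).isAlgClosed
  have hΩn : Normal k (constClosure k K) := IsAlgClosure.normal k (constClosure k K)
  -- a generator, an embedding of `k₁` and a lift of the generator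
  obtain ⟨σ, hgen⟩ := IsCyclic.exists_generator (α := Gal(k₁/k))
  have hcard : Fintype.card (Gal(k₁/k)) = n := by
    rw [← Nat.card_eq_fintype_card, IsGalois.card_aut_eq_finrank, hn]
  have hσ : orderOf σ = n := by
    rw [orderOf_eq_card_of_forall_mem_zpowers hgen, Nat.card_eq_fintype_card, hcard]
  obtain ⟨e₁⟩ : Nonempty (k₁ →ₐ[k] constClosure k K) := ⟨IsAlgClosed.lift⟩
  obtain ⟨τ, hτe⟩ : ∃ τ : Gal(constClosure k K/k), ∀ c, τ (e₁ c) = e₁ (σ c) := by
    let _ : Algebra k₁ (constClosure k K) := e₁.toRingHom.toAlgebra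
    have ht : IsScalarTower k k₁ (constClosure k K) :=
      IsScalarTower.of_algebraMap_eq (fun x => (e₁.commutes x).symm)
    obtain ⟨τ, hτ⟩ := AlgEquiv.restrictNormalHom_surjective (F := k) (K₁ := k₁)
      (constClosure k K) σ
    refine ⟨τ, fun c => ?_⟩
    have h1 := τ.restrictNormal_commutes k₁ c
    have h2 : τ.restrictNormal k₁ = σ := hτ
    rw [h2] at h1
    exact h1.symm
  set I := incl k K with hI
  set t := s.toHom with ht
  -- the coefficients
  set ι : k₁ →+* maxUnr k K := I.comp (e₁ : k₁ →+* constClosure k K) with hι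
  have hιint : ∀ c, IsIntegral k (ι c) := fun c => incl_integral _
  have hιk : ι.comp (algebraMap k k₁) = algebraMap k (maxUnr k K) := by
    refine RingHom.ext (fun c => ?_)
    show I (e₁ (algebraMap k k₁ c)) = _
    rw [AlgHom.commutes]
    rfl
  have hact : ∀ (i : ℕ) (c : k₁), t (τ ^ i) (ι c) = ι ((σ ^ i) c) := by
    intro i
    induction i with
    | zero => intro c; rw [pow_zero, map_one, pow_zero]; rfl
    | succ i ih =>
      intro c
      rw [pow_succ, map_mul, AlgEquiv.mul_apply]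
      have h1 : t τ (ι c) = ι (σ c) := by
        show t τ (I (e₁ c)) = I (e₁ (σ c))
        rw [act_incl hs, hτe]
      rw [h1, ih, pow_succ]
      rfl
  set xM := algebraMap K (maxUnr k K) x with hxM
  set yM := algebraMap K (maxUnr k K) y with hyM
  have hxfix : ∀ ρ, t ρ xM = xM := fun ρ => AlgEquiv.commutes _ _
  have hyfix : ∀ ρ, t ρ yM = yM := fun ρ => AlgEquiv.commutes _ _
  have heval : ∀ (i : ℕ) (q : k₁[X]), t (τ ^ i) (eval₂ ι xM q) =
      eval₂ ι xM (q.map ((σ ^ i : Gal(k₁/k)) : k₁ →+* k₁)) := by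
    intro i q
    rw [eval₂_map, eval₂_eq_sum_range, eval₂_eq_sum_range, map_sum]
    refine Finset.sum_congr rfl (fun j _ => ?_)
    rw [map_mul (t (τ ^ i)), map_pow (t (τ ^ i)) xM j, hxfix, hact]
    rfl
  -- the products
  have hprod : f.map (algebraMap k k₁) =
      ∏ i ∈ Finset.range n, g.map ((σ ^ i : Gal(k₁/k)) : k₁ →+* k₁) := by
    rw [hf, finprod_eq_prod_of_fintype,
      ← hcard, prod_zpowers σ hgen (fun ρ => g.map (ρ : k₁ →+* k₁))]
  obtain ⟨q, hq⟩ : ∃ q, n = q + 1 := ⟨n - 1, by omega⟩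
  set g' : k₁[X] := ∏ i ∈ Finset.range q, g.map ((σ ^ (i + 1) : Gal(k₁/k)) : k₁ →+* k₁) with hg'
  have hgg' : g * g' = f.map (algebraMap k k₁) := by
    rw [hprod, hq, Finset.prod_range_succ', mul_comm, hg']
    congr 1
    rw [pow_zero]
    exact (Polynomial.map_id (p := g)).symm
  have hsep : (g * g').Separable := by
    rw [hgg', separable_map]
    exact PerfectField.separable_iff_squarefree.2 hsq
  have hcop : IsCoprime g g' := hsep.isCoprime
  set h₁ : k₁[X] := g.map (σ : k₁ →+* k₁) with hh₁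
  set h₁' : k₁[X] := g'.map (σ : k₁ →+* k₁) with hh₁'
  have hfσ : (f.map (algebraMap k k₁)).map (σ : k₁ →+* k₁) = f.map (algebraMap k k₁) := by
    rw [Polynomial.map_map]
    congr 1
    ext c
    exact σ.commutes c
  have hhh' : h₁ * h₁' = f.map (algebraMap k k₁) := by
    rw [hh₁, hh₁', ← Polynomial.map_mul, hgg', hfσ]
  have hcop' : IsCoprime h₁ h₁' := hcop.map (mapRingHom (σ : k₁ →+* k₁))
  have hf0 : f.map (algebraMap k k₁) ≠ 0 := by
    rw [Ne, Polynomial.map_eq_zero]
    exact hsq.ne_zero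
  have hg0 : g ≠ 0 := by
    rintro rfl
    rw [zero_mul] at hgg'
    exact hf0 hgg'.symm
  have hh0 : h₁ ≠ 0 := by
    intro h0
    rw [h0, zero_mul] at hhh'
    exact hf0 hhh'.symm
  have hfx : eval₂ ι xM (f.map (algebraMap k k₁)) = algebraMap k (maxUnr k K) b * yM ^ n := by
    rw [eval₂_map, hιk]
    have h1 := congrArg (algebraMap K (maxUnr k K)) h
    rw [map_mul, map_pow, ← IsScalarTower.algebraMap_apply, aeval_def, hom_eval₂,
      ← IsScalarTower.algebraMap_eq] at h1
    exact h1.symm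
  have hyM0 : yM ≠ 0 := (_root_.map_ne_zero _).2 hy
  have hbM0 : algebraMap k (maxUnr k K) b ≠ 0 := (_root_.map_ne_zero _).2 hb0
  set U := eval₂ ι xM g with hU
  have hU0 : U ≠ 0 := by
    intro h0
    rw [← hgg', eval₂_mul, ← hU, h0, zero_mul] at hfx
    exact mul_ne_zero hbM0 (pow_ne_zero n hyM0) hfx.symm
  have hUτ : t τ U = eval₂ ι xM h₁ := by
    have h1 := heval 1 g
    rw [pow_one, pow_one] at h1
    exact h1
  have hUH : ∀ ρ : Gal(constClosure k K/k), (∀ c, ρ (e₁ c) = e₁ c) → t ρ U = U := by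
    intro ρ h3
    rw [hU, eval₂_eq_sum_range, map_sum]
    refine Finset.sum_congr rfl (fun j _ => ?_)
    have h4 : t ρ (ι (g.coeff j)) = ι (g.coeff j) := by
      show t ρ (I (e₁ _)) = I (e₁ _)
      rw [act_incl hs, h3]
    rw [map_mul (t ρ), map_pow (t ρ) xM j, hxfix, h4]
  have hNU : ∏ i ∈ Finset.range n, t (τ ^ i) U = algebraMap k (maxUnr k K) b * yM ^ n := by
    have h1 : ∏ i ∈ Finset.range n, t (τ ^ i) U =
        eval₂ ι xM (∏ i ∈ Finset.range n, g.map ((σ ^ i : Gal(k₁/k)) : k₁ →+* k₁)) := by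
      rw [eval₂_finsetProd]
      exact Finset.prod_congr rfl (fun i _ => heval i g)
    rw [h1, ← hprod, hfx]
  -- a finite unramified extension containing the coefficients
  obtain ⟨F, hF, hkF⟩ : ∃ F : IntermediateField K (AlgebraicClosure K), IsFinUnr k F ∧
      ∀ c : k₁, ((ι c : maxUnr k K) : AlgebraicClosure K) ∈ F := by
    obtain ⟨α, hα⟩ := Field.exists_primitive_element k k₁
    obtain ⟨F, hF, -, hαF⟩ := (isFinUnr_bot (k := k) (K := K)).exists_const
      ((ι α : maxUnr k K) : AlgebraicClosure K) (isIntegral_coe.2 (hιint α))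
    refine ⟨F, hF, fun c => ?_⟩
    have hc : c ∈ k⟮α⟯ := by rw [hα]; trivial
    rw [IntermediateField.mem_adjoin_simple_iff] at hc
    have hαint : IsIntegral k α := Algebra.IsIntegral.isIntegral α
    have hc2 : c ∈ Algebra.adjoin k {α} := by
      rw [← IntermediateField.adjoin_simple_toSubalgebra_of_isAlgebraic hαint.isAlgebraic, hα]
      trivial
    rw [Algebra.adjoin_singleton_eq_range_aeval] at hc2
    obtain ⟨P, rfl⟩ := hc2
    have h1 : ι (aeval α P) = eval₂ (algebraMap k (maxUnr k K)) (ι α) P := by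
      rw [aeval_def, hom_eval₂, hιk]
    show ((ι (aeval α P) : maxUnr k K) : AlgebraicClosure K) ∈ F
    rw [h1, eval₂_eq_sum_range]
    have h2 : ((∑ i ∈ Finset.range (P.natDegree + 1),
        algebraMap k (maxUnr k K) (P.coeff i) * ι α ^ i : maxUnr k K) : AlgebraicClosure K) =
        ∑ i ∈ Finset.range (P.natDegree + 1),
          algebraMap K (AlgebraicClosure K) (algebraMap k K (P.coeff i)) *
            ((ι α : maxUnr k K) : AlgebraicClosure K) ^ i := by
      rw [AddSubmonoidClass.coe_finsetSum]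
      rfl
    rw [h2]
    exact sum_mem (fun i _ => mul_mem (F.algebraMap_mem _) (pow_mem hαF i))
  let ιF : k₁ →+* F := ((algebraMap (maxUnr k K) (AlgebraicClosure K)).comp ι).codRestrict
    F.toSubfield.toSubring hkF
  have hιF : ∀ c, ((ιF c : F) : AlgebraicClosure K) = ι c := fun _ => rfl
  have hιFint : ∀ c, IsIntegral k (ιF c) := fun c =>
    (isIntegral_algHom_iff ((F.val).restrictScalars k) (Subtype.val_injective)).1
      (isIntegral_coe.2 (hιint c))
  set xF := algebraMap K F x with hxF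
  set yF := algebraMap K F y with hyF
  have hevF : ∀ P : k₁[X], ((eval₂ ιF xF P : F) : AlgebraicClosure K) = eval₂ ι xM P := by
    intro P
    have h1 := hom_eval₂ P ιF (algebraMap F (AlgebraicClosure K)) xF
    have h2 := hom_eval₂ P ι (algebraMap (maxUnr k K) (AlgebraicClosure K)) xM
    exact h1.trans h2.symm
  have hfF : ∀ P Q : k₁[X], P * Q = f.map (algebraMap k k₁) →
      eval₂ ιF xF P * eval₂ ιF xF Q = algebraMap k F b * yF ^ n := by
    intro P Q hPQ
    apply Subtype.ext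
    have h1 := hevF (P * Q)
    rw [eval₂_mul, hPQ] at h1
    rw [h1, hfx]
    rfl
  have hbF0 : algebraMap k F b ≠ 0 := (_root_.map_ne_zero _).2 hb0
  have hexroot : ∀ f₀ : F, IsDivisible n k f₀ → ∀ u : maxUnr k K,
      (f₀ : AlgebraicClosure K) = u → ∃ γ : maxUnr k K, γ ^ n = u := by
    intro f₀ hf₀ u hu
    obtain ⟨γ', hγ'⟩ := IsAlgClosed.exists_pow_nat_eq (f₀ : AlgebraicClosure K) hn0
    obtain ⟨F2, hF2, -, hγF2⟩ := hF.exists_root hnk γ' _ hγ' hf₀
    exact ⟨⟨γ', hF2.le_maxUnr hγF2⟩, Subtype.ext (hγ'.trans hu)⟩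
  -- the function `h`
  set P : k₁[X] := ∏ j ∈ Finset.range n, g.map ((σ ^ j : Gal(k₁/k)) : k₁ →+* k₁) ^ (n - 1 - j)
    with hP
  have hfσj : ∀ j : ℕ, (f.map (algebraMap k k₁)).map ((σ ^ j : Gal(k₁/k)) : k₁ →+* k₁) =
      f.map (algebraMap k k₁) := by
    intro j
    rw [Polynomial.map_map]
    congr 1
    ext c
    exact (σ ^ j : Gal(k₁/k)).commutes c
  have hdiv : IsDivisible n k (eval₂ ιF xF P) := by
    refine isDivisible_tele ιF hιFint g.natDegree
      (fun j => g.map ((σ ^ j : Gal(k₁/k)) : k₁ →+* k₁))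
      (fun j => g'.map ((σ ^ j : Gal(k₁/k)) : k₁ →+* k₁)) (fun j => ?_) (fun j => ?_)
      (fun j => ?_) hpar xF (algebraMap k F b) yF isIntegral_algebraMap hbF0 (fun j => ?_)
    · exact hcop.map (mapRingHom ((σ ^ j : Gal(k₁/k)) : k₁ →+* k₁))
    · rw [Ne, Polynomial.map_eq_zero]
      exact hg0
    · exact Polynomial.natDegree_map _
    · apply hfF
      rw [← Polynomial.map_mul, hgg', hfσj]
  obtain ⟨γ, hγ⟩ := hexroot _ hdiv (eval₂ ι xM P) (hevF P)
  have hPM : eval₂ ι xM P = ∏ j ∈ Finset.range n, t (τ ^ j) U ^ (n - 1 - j) := by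
    rw [hP, eval₂_finsetProd]
    refine Finset.prod_congr rfl (fun j _ => ?_)
    rw [eval₂_pow, hU, heval]
  have hτP : t τ (eval₂ ι xM P) = ∏ j ∈ Finset.range n, t (τ ^ (j + 1)) U ^ (n - 1 - j) := by
    rw [hPM, map_prod]
    refine Finset.prod_congr rfl (fun j _ => ?_)
    rw [map_pow (t τ), pow_succ' τ j, map_mul t, AlgEquiv.mul_apply]
  have hfixpoly : ∀ ρ : Gal(constClosure k K/k), (∀ c, ρ (e₁ c) = e₁ c) → ∀ Q : k₁[X],
      t ρ (eval₂ ι xM Q) = eval₂ ι xM Q := by
    intro ρ h3 Q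
    rw [eval₂_eq_sum_range, map_sum]
    refine Finset.sum_congr rfl (fun j _ => ?_)
    have h4 : t ρ (ι (Q.coeff j)) = ι (Q.coeff j) := by
      show t ρ (I (e₁ _)) = I (e₁ _)
      rw [act_incl hs, h3]
    rw [map_mul (t ρ), map_pow (t ρ) xM j, hxfix, h4]
  have hconj0 : ∀ j : ℕ, t (τ ^ j) U ≠ 0 := fun j => by
    rw [Ne, EmbeddingLike.map_eq_zero_iff]
    exact hU0
  have hh0 : eval₂ ι xM P ≠ 0 := by
    rw [hPM]
    exact Finset.prod_ne_zero_iff.2 (fun j _ => pow_ne_zero _ (hconj0 j))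
  refine norm_thm_tors hs n hn e₁ σ hgen τ hτe b n hn0 (algebraMap k k₁ b) (U / yM)
    (eval₂ ι xM P) γ (div_ne_zero hU0 hyM0) hh0 ?_ (fun ρ hρ => hfixpoly ρ hρ P) ?_ hγ ?_
  · intro ρ hρ
    rw [map_div₀, hyfix, hU, hfixpoly ρ hρ g]
  · have h1 : ∀ i ∈ Finset.range n, t (τ ^ i) (U / yM) = t (τ ^ i) U / yM := fun i _ => by
      rw [map_div₀, hyfix]
    rw [Finset.prod_congr rfl h1, Finset.prod_div_distrib, hNU, Finset.prod_const,
      Finset.card_range, mul_div_assoc, div_self (pow_ne_zero n hyM0), mul_one]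
  · have h1 := prod_tele n (fun j => t (τ ^ j) U)
    have h2 : t (τ ^ 0) U = U := by rw [pow_zero, map_one]; rfl
    have h3 : incl k K (e₁ (algebraMap k k₁ b)) = algebraMap k (maxUnr k K) b := by
      rw [AlgHom.commutes]
      rfl
    rw [h2, hNU, ← hPM, ← hτP] at h1
    rw [h3, div_pow, div_mul_eq_mul_div, ← h1, div_eq_iff (pow_ne_zero n hyM0)]
    ring

end P025H511
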