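import Mathlib

/-! # Roots of unity over a finite field -/

open Polynomial

namespace P025H511

section fin

variable {κ L : Type*} [Field κ] [Fintype κ] [Field L] [Algebra κ L] {n : ℕ} (hn : 2 ≤ n)
  {z : L} (hz : IsPrimitiveRoot z (Fintype.card κ ^ n - 1))

include hn in
omit [Field κ] in
lemma card_pow_lt [Nontrivial κ] {i : ℕ} (hi : i < n) :
    Fintype.card κ ^ i < Fintype.card κ ^ n - 1 := by
  have hq : 2 ≤ Fintype.card κ := Fintype.one_lt_card
  have h1 : Fintype.card κ ^ i ≤ Fintype.card κ ^ (n - 1) :=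
    Nat.pow_le_pow_right (by omega) (by omega)
  have h2 : Fintype.card κ ^ n = Fintype.card κ ^ (n - 1) * Fintype.card κ := by
    rw [← pow_succ]; congr 1; omega
  have h3 : 2 ≤ Fintype.card κ ^ (n - 1) := by
    calc 2 ≤ Fintype.card κ := hq
      _ = Fintype.card κ ^ 1 := (pow_one _).symm
      _ ≤ _ := Nat.pow_le_pow_right (by omega) (by omega)
  have h4 : Fintype.card κ ^ (n - 1) * 2 ≤ Fintype.card κ ^ (n - 1) * Fintype.card κ :=
    Nat.mul_le_mul_left _ hq
  omega

/-- Frobenius conjugates of roots are roots -/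
lemma frob_root (f : κ[X]) (y : L) (hy : aeval y f = 0) (i : ℕ) :
    aeval (y ^ (Fintype.card κ ^ i)) f = 0 := by
  induction i with
  | zero => rw [pow_zero, pow_one]; exact hy
  | succ i ih =>
    have h1 := Polynomial.aeval_algHom_apply (FiniteField.frobeniusAlgHom κ L)
      (y ^ (Fintype.card κ ^ i)) f
    rw [ih, map_zero] at h1
    rw [pow_succ, pow_mul]
    exact h1

include hz hn in
lemma conj_inj : Set.InjOn (fun i : ℕ => z ^ (Fintype.card κ ^ i)) (Finset.range n : Set ℕ) := by
  intro i hi j hj hij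
  rw [Finset.coe_range, Set.mem_Iio] at hi hj
  have h1 := hz.pow_inj (card_pow_lt hn hi) (card_pow_lt hn hj) hij
  exact Nat.pow_right_injective (Fintype.one_lt_card : 2 ≤ Fintype.card κ) h1

include hz hn in
/-- polynomials with root `z` have degree at least `n` -/
lemma le_natDegree (f : κ[X]) (hf : f ≠ 0) (h0 : aeval z f = 0) : n ≤ f.natDegree := by
  classical
  have hf' : f.map (algebraMap κ L) ≠ 0 := (Polynomial.map_ne_zero_iff
    (algebraMap κ L).injective).2 hf
  set S : Finset L := (Finset.range n).image (fun i : ℕ => z ^ (Fintype.card κ ^ i)) with hS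
  have hcard : S.card = n := by
    rw [hS, Finset.card_image_of_injOn (conj_inj hn hz), Finset.card_range]
  have hsub : S ⊆ (f.map (algebraMap κ L)).roots.toFinset := by
    intro y hy
    obtain ⟨i, -, rfl⟩ := Finset.mem_image.1 hy
    rw [Multiset.mem_toFinset, mem_roots hf', IsRoot.def, eval_map_algebraMap]
    exact frob_root f z h0 i
  calc n = S.card := hcard.symm
    _ ≤ _ := Finset.card_le_card hsub
    _ ≤ Multiset.card (f.map (algebraMap κ L)).roots := Multiset.toFinset_card_le _
    _ ≤ (f.map (algebraMap κ L)).natDegree := card_roots' _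
    _ = f.natDegree := natDegree_map _

include hz hn in
lemma natDegree_minpoly_le : (minpoly κ z).natDegree ≤ n := by
  classical
  have hN : 0 < Fintype.card κ ^ n - 1 := (Nat.zero_le _).trans_lt (card_pow_lt hn (i := 0)
    (by omega))
  have hint : IsIntegral κ z :=
    IsIntegral.of_pow hN (by rw [hz.pow_eq_one]; exact isIntegral_one)
  obtain ⟨p, hchar, f, hp, hcard⟩ := FiniteField.card' κ
  have : Fact p.Prime := ⟨hp⟩
  have hcop : p.Coprime (Fintype.card κ ^ n - 1) := by
    rw [Nat.Prime.coprime_iff_not_dvd hp]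
    intro hdvd
    have h1 : p ∣ Fintype.card κ ^ n := by
      rw [hcard, ← pow_mul]
      exact dvd_pow_self p (by have := f.pos; positivity)
    have h2 : p ∣ 1 := by
      have h3 := Nat.dvd_sub h1 hdvd
      rwa [Nat.sub_sub_self (by omega)] at h3
    exact hp.one_lt.ne' (Nat.dvd_one.1 h2)
  have hdvd : minpoly κ z ∣ cyclotomic (Fintype.card κ ^ n - 1) κ := by
    apply minpoly.dvd
    rw [aeval_def, ← eval_map, map_cyclotomic]
    exact hz.isRoot_cyclotomic hN
  rw [natDegree_of_dvd_cyclotomic_of_irreducible hcard hcop hdvd (minpoly.irreducible hint)]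
  apply Nat.le_of_dvd (by omega)
  apply orderOf_dvd_of_pow_eq_one
  apply Units.ext
  rw [Units.val_pow_eq_pow_val, ZMod.coe_unitOfCoprime, Units.val_one, ← Nat.cast_pow, ← hcard]
  have h1 : ((Fintype.card κ ^ n : ℕ) : ZMod (Fintype.card κ ^ n - 1)) =
      ((1 + (Fintype.card κ ^ n - 1) : ℕ) : ZMod (Fintype.card κ ^ n - 1)) := by
    congr 1; omega
  rw [h1, Nat.cast_add, ZMod.natCast_self, add_zero, Nat.cast_one]

include hz hn in
/-- the conjugates of `z` are its Frobenius conjugates -/
lemma exists_frob (y : L) (hy : aeval y (minpoly κ z) = 0) :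
    ∃ i, y = z ^ (Fintype.card κ ^ i) := by
  classical
  have hN : 0 < Fintype.card κ ^ n - 1 := (Nat.zero_le _).trans_lt (card_pow_lt hn (i := 0)
    (by omega))
  have hint : IsIntegral κ z :=
    IsIntegral.of_pow hN (by rw [hz.pow_eq_one]; exact isIntegral_one)
  have hf' : (minpoly κ z).map (algebraMap κ L) ≠ 0 := (Polynomial.map_ne_zero_iff
    (algebraMap κ L).injective).2 (minpoly.ne_zero hint)
  set S : Finset L := (Finset.range n).image (fun i : ℕ => z ^ (Fintype.card κ ^ i)) with hS
  have hcard : S.card = n := by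
    rw [hS, Finset.card_image_of_injOn (conj_inj hn hz), Finset.card_range]
  have hsub : S ⊆ ((minpoly κ z).map (algebraMap κ L)).roots.toFinset := by
    intro y hy
    obtain ⟨i, -, rfl⟩ := Finset.mem_image.1 hy
    rw [Multiset.mem_toFinset, mem_roots hf', IsRoot.def, eval_map_algebraMap]
    exact frob_root _ z (minpoly.aeval κ z) i
  have heq : S = ((minpoly κ z).map (algebraMap κ L)).roots.toFinset := by
    apply Finset.eq_of_subset_of_card_le hsub
    rw [hcard]
    calc ((minpoly κ z).map (algebraMap κ L)).roots.toFinset.card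
        ≤ Multiset.card ((minpoly κ z).map (algebraMap κ L)).roots := Multiset.toFinset_card_le _
      _ ≤ ((minpoly κ z).map (algebraMap κ L)).natDegree := card_roots' _
      _ = (minpoly κ z).natDegree := natDegree_map _
      _ ≤ n := natDegree_minpoly_le hn hz
  have hy' : y ∈ S := by
    rw [heq, Multiset.mem_toFinset, mem_roots hf', IsRoot.def, eval_map_algebraMap]
    exact hy
  obtain ⟨i, -, hi⟩ := Finset.mem_image.1 hy'
  exact ⟨i, hi.symm⟩

end fin

end P025H511
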