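import Vale.Agent.P025.H511.UnramN

/-! # Cyclic extensions of every degree of a `p`-adic field, with elements that are not norms -/

open Polynomial

namespace P025H511

open P025H641

universe u

/-- every locally compact ultrametric field of characteristic zero has, for every `n ≥ 2`, a cyclic
extension of degree `n` for which a uniformizer is not a norm -/
theorem exists_unram_normed {k : Type u} [NontriviallyNormedField k] [IsUltrametricDist k]
    [ProperSpace k] [CharZero k] (n : ℕ) (hn : 2 ≤ n) :
    ∃ (k₁ : Type u) (_ : Field k₁) (_ : Algebra k k₁) (_ : FiniteDimensional k k₁)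
      (_ : IsGalois k k₁) (_ : IsCyclic Gal(k₁/k)), Module.finrank k k₁ = n ∧
      ∃ b : k, b ≠ 0 ∧ ∀ z : k₁, Algebra.norm k z ≠ b := by
  classical
  set q := Nat.card (kap k) with hq
  set N := q ^ n - 1 with hNdef
  have hN : 0 < N := N_pos (k := k) hn
  have hNZ : NeZero N := ⟨hN.ne'⟩
  have hNk : NeZero ((N : ℕ) : k) := ⟨by exact_mod_cast hN.ne'⟩
  have hcyc : IsCyclotomicExtension {N} k (CyclotomicField N k) := inferInstance
  have hfd : FiniteDimensional k (CyclotomicField N k) :=
    IsCyclotomicExtension.finiteDimensional {N} k (CyclotomicField N k)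
  have hgal : IsGalois k (CyclotomicField N k) :=
    IsCyclotomicExtension.isGalois {N} k (CyclotomicField N k)
  let _ : NontriviallyNormedField (CyclotomicField N k) :=
    spectralNorm.nontriviallyNormedField k (CyclotomicField N k)
  have hu : IsUltrametricDist (CyclotomicField N k) :=
    IsUltrametricDist.isUltrametricDist_of_isNonarchimedean_norm isNonarchimedean_spectralNorm
  have hnorm : ∀ x : k, ‖algebraMap k (CyclotomicField N k) x‖ = ‖x‖ := fun x =>
    spectralNorm_extends x
  have hσn : ∀ (σ : Gal(CyclotomicField N k/k)) (x : CyclotomicField N k), ‖σ x‖ = ‖x‖ :=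
    fun σ x => (spectralNorm_eq_of_equiv σ x).symm
  set ζ := IsCyclotomicExtension.zeta N k (CyclotomicField N k) with hζdef
  have hζ : IsPrimitiveRoot ζ N := IsCyclotomicExtension.zeta_spec N k (CyclotomicField N k)
  have hpow : ∀ σ : Gal(CyclotomicField N k/k), ∃ i, σ ζ = ζ ^ (q ^ i) := fun σ =>
    conj_zeta hnorm hn hζ σ (hσn σ)
  -- the Galois group is cyclic of order at most `n`
  have hcop : q.Coprime N := by
    have h1 : q ^ n = N + 1 := by omega
    have h2 : (q ^ n).Coprime N := by
      rw [h1, Nat.coprime_self_add_left]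
      exact Nat.coprime_one_left N
    exact (Nat.coprime_pow_left_iff (by omega) _ _).1 h2
  set u : (ZMod N)ˣ := ZMod.unitOfCoprime q hcop with hu'
  have hun : u ^ n = 1 := by
    apply Units.ext
    rw [Units.val_pow_eq_pow_val, hu', ZMod.coe_unitOfCoprime, Units.val_one, ← Nat.cast_pow]
    have h1 : q ^ n = 1 + N := by omega
    rw [h1, Nat.cast_add, ZMod.natCast_self, add_zero, Nat.cast_one]
  have hmem : ∀ σ : Gal(CyclotomicField N k/k), hζ.autToPow k σ ∈ Subgroup.zpowers u := by
    intro σ
    obtain ⟨i, hi⟩ := hpow σ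
    refine ⟨i, ?_⟩
    apply Units.ext
    have h1 := hζ.autToPow_spec k σ
    rw [hi] at h1
    have hfo : IsOfFinOrder ζ := isOfFinOrder_iff_pow_eq_one.2 ⟨N, hN, hζ.pow_eq_one⟩
    have h2 := hfo.pow_eq_pow_iff_modEq.1 h1
    rw [← hζ.eq_orderOf] at h2
    have h3 := (ZMod.natCast_eq_natCast_iff _ _ _).2 h2
    rw [ZMod.natCast_zmod_val] at h3
    rw [h3]
    show ((u ^ (i : ℤ) : (ZMod N)ˣ) : ZMod N) = _
    rw [zpow_natCast, Units.val_pow_eq_pow_val, hu', ZMod.coe_unitOfCoprime, Nat.cast_pow]
  set g : Gal(CyclotomicField N k/k) →* Subgroup.zpowers u :=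
    (hζ.autToPow k).codRestrict (Subgroup.zpowers u) hmem with hg
  have hginj : Function.Injective g := by
    intro σ τ h
    exact IsPrimitiveRoot.autToPow_injective k hζ (congrArg Subtype.val h)
  have hcycG : IsCyclic Gal(CyclotomicField N k/k) := isCyclic_of_injective g hginj
  have hle : Module.finrank k (CyclotomicField N k) ≤ n := by
    rw [← IsGalois.card_aut_eq_finrank]
    calc Nat.card Gal(CyclotomicField N k/k) ≤ Nat.card (Subgroup.zpowers u) :=
          Nat.card_le_card_of_injective g hginj
      _ = orderOf u := Nat.card_zpowers u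
      _ ≤ n := Nat.le_of_dvd (by omega) (orderOf_dvd_of_pow_eq_one hun)
  -- the degree is at least `n`
  have hdim : Module.finrank k (CyclotomicField N k) = (minpoly k ζ).natDegree := by
    rw [(hζ.powerBasis k).finrank, ← (hζ.powerBasis k).natDegree_minpoly,
      IsPrimitiveRoot.powerBasis_gen]
  have hint : IsIntegral k ζ := Algebra.IsIntegral.isIntegral ζ
  have hge : n ≤ Module.finrank k (CyclotomicField N k) := by
    rw [hdim]
    by_contra hcon
    push Not at hcon
    obtain ⟨c, hc, h1⟩ := norm_eval hnorm hn hζ (minpoly k ζ) (minpoly.ne_zero hint) hcon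
    rw [minpoly.aeval, norm_zero] at h1
    exact hc (norm_eq_zero.1 h1.symm)
  have hfin : Module.finrank k (CyclotomicField N k) = n := le_antisymm hle hge
  refine ⟨CyclotomicField N k, inferInstance, inferInstance, hfd, hgal, hcycG, hfin, unif k,
    unif_ne, fun z hz => ?_⟩
  obtain ⟨f, hfdeg, hf⟩ := (hζ.powerBasis k).exists_eq_aeval z
  rw [← (hζ.powerBasis k).finrank, hfin] at hfdeg
  rw [IsPrimitiveRoot.powerBasis_gen] at hf
  by_cases hf0 : f = 0
  · rw [hf, hf0, map_zero, Algebra.norm_zero] at hz
    exact unif_ne hz.symm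
  obtain ⟨c, hc0, hc⟩ := norm_eval hnorm hn hζ f hf0 hfdeg
  rw [← hf] at hc
  have h1 := Algebra.norm_eq_prod_automorphisms k z
  have h2 := congrArg norm h1
  rw [hnorm, hz, norm_prod, Finset.prod_congr rfl (fun σ _ => hσn σ z), Finset.prod_const,
    Finset.card_univ, ← Nat.card_eq_fintype_card, IsGalois.card_aut_eq_finrank, hfin, hc] at h2
  have h3 : nval (unif k) = nval c * n := by
    apply nval_eq
    calc ‖unif k‖ = ‖c‖ ^ n := h2
      _ = (‖unif k‖ ^ nval c) ^ n := by rw [← norm_eq_nval c hc0]
      _ = ‖unif k‖ ^ (nval c * n) := by rw [zpow_mul, zpow_natCast]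
  rw [nval_unif] at h3
  have h4 : (n : ℤ) ∣ 1 := Dvd.intro_left _ h3.symm
  have h5 := Int.le_of_dvd one_pos h4
  omega

/-- **Existence.** Every `p`-adic field has, for every `n ≥ 2`, a cyclic extension of degree `n`
and an element which is not a norm from it. -/
theorem exists_unram {p : ℕ} [Fact p.Prime] {k : Type u} [Field k] [Algebra ℚ_[p] k]
    [FiniteDimensional ℚ_[p] k] (n : ℕ) (hn : 2 ≤ n) :
    ∃ (k₁ : Type u) (_ : Field k₁) (_ : Algebra k k₁) (_ : FiniteDimensional k k₁)
      (_ : IsGalois k k₁) (_ : IsCyclic Gal(k₁/k)), Module.finrank k k₁ = n ∧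
      ∃ b : k, b ≠ 0 ∧ ∀ z : k₁, Algebra.norm k z ≠ b := by
  let inst1 : NontriviallyNormedField k := spectralNorm.nontriviallyNormedField ℚ_[p] k
  have hu : IsUltrametricDist k :=
    IsUltrametricDist.isUltrametricDist_of_isNonarchimedean_norm isNonarchimedean_spectralNorm
  have hproper : ProperSpace k := by
    let _ : NormedAlgebra ℚ_[p] k := spectralNorm.normedAlgebra ℚ_[p] k
    exact FiniteDimensional.proper ℚ_[p] k
  have : CharZero k := charZero_of_injective_algebraMap (algebraMap ℚ_[p] k).injective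
  exact exists_unram_normed n hn

end P025H511
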