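import Vale.Agent.P025.H511.FinRoot
import Vale.Agent.P025.H641.Theta

/-! # Unramified extensions of locally compact fields: the normed part -/

open Polynomial

namespace P025H511

open P025H641

universe u v

section normed

variable {k : Type u} {k₁ : Type v} [NontriviallyNormedField k] [IsUltrametricDist k]
  [NontriviallyNormedField k₁] [IsUltrametricDist k₁] [Algebra k k₁]
  (hnorm : ∀ x : k, ‖algebraMap k k₁ x‖ = ‖x‖)

/-- the inclusion of the valuation rings -/
noncomputable def vinc : vring k →+* vring k₁ :=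
  ((algebraMap k k₁).comp (vring k).subtype).codRestrict (vring k₁).toSubring
    (fun x => (mem_vring _).2 (by
      show ‖algebraMap k k₁ (x : k)‖ ≤ 1
      rw [hnorm]
      exact (mem_vring _).1 x.2))

lemma vinc_coe (x : vring k) : ((vinc hnorm x : vring k₁) : k₁) = algebraMap k k₁ (x : k) := rfl

omit [Algebra k k₁] [NontriviallyNormedField k] [IsUltrametricDist k] in
/-- the residue vanishes iff the norm is small -/
lemma residue_eq_zero (x : vring k₁) : IsLocalRing.residue (vring k₁) x = 0 ↔ ‖(x : k₁)‖ < 1 := by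
  have h1 := (mem_vring _).1 x.2
  rw [← rs_eq_zero_iff _ h1, rs_eq _ h1]

/-- the inclusion of the residue fields -/
noncomputable def rinc : kap k →+* kap k₁ :=
  Ideal.Quotient.lift (IsLocalRing.maximalIdeal (vring k))
    ((IsLocalRing.residue (vring k₁)).comp (vinc hnorm)) (by
      intro a ha
      have h1 : IsLocalRing.residue (vring k) a = 0 := (IsLocalRing.residue_eq_zero_iff a).2 ha
      rw [residue_eq_zero] at h1
      rw [RingHom.comp_apply, residue_eq_zero, vinc_coe, hnorm]
      exact h1)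

lemma rinc_residue (x : vring k) : rinc hnorm (IsLocalRing.residue (vring k) x) =
    IsLocalRing.residue (vring k₁) (vinc hnorm x) := rfl

variable [ProperSpace k] {n : ℕ} (hn : 2 ≤ n) {ζ : k₁}
  (hζ : IsPrimitiveRoot ζ (Nat.card (kap k) ^ n - 1))

include hn in
omit [ProperSpace k] in
lemma N_pos [Finite (kap k)] : 0 < Nat.card (kap k) ^ n - 1 := by
  let _ : Fintype (kap k) := Fintype.ofFinite _
  rw [Nat.card_eq_fintype_card]
  exact (Nat.zero_le _).trans_lt (card_pow_lt (κ := kap k) hn (i := 0) (by omega))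

include hn hζ in
lemma norm_zeta_eq : ‖ζ‖ = 1 := by
  have h1 : ‖ζ‖ ^ (Nat.card (kap k) ^ n - 1) = 1 := by
    rw [← norm_pow, hζ.pow_eq_one, norm_one]
  exact (pow_eq_one_iff_of_nonneg (norm_nonneg _) (N_pos (k := k) hn).ne').1 h1

/-- `ζ` in the valuation ring -/
noncomputable def zO : vring k₁ := ⟨ζ, (mem_vring _).2 (norm_zeta_eq hn hζ).le⟩

include hnorm in
/-- roots of unity of order prime to the residue characteristic remain primitive -/
lemma prim_residue : IsPrimitiveRoot (IsLocalRing.residue (vring k₁) (zO hn hζ))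
    (Nat.card (kap k) ^ n - 1) := by
  classical
  set N := Nat.card (kap k) ^ n - 1 with hN
  have hzN : (zO hn hζ) ^ N = 1 := Subtype.ext hζ.pow_eq_one
  refine IsPrimitiveRoot.mk_of_lt _ (N_pos (k := k) hn) ?_ ?_
  · rw [← map_pow, hzN, map_one]
  · intro l hl0 hlN h
    set w : vring k₁ := (zO hn hζ) ^ l with hw
    have hw1 : w ≠ 1 := by
      intro h1
      have h2 : ζ ^ l = 1 := congrArg Subtype.val h1
      exact absurd (Nat.le_of_dvd hl0 (hζ.dvd_of_pow_eq_one l h2)) (not_le.2 hlN)
    have hwN : w ^ N = 1 := by rw [hw, ← pow_mul, mul_comm, pow_mul, hzN, one_pow]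
    have h1 : (∑ i ∈ Finset.range N, w ^ i) * (w - 1) = 0 := by
      rw [geom_sum_mul, hwN, sub_self]
    have h2 : ∑ i ∈ Finset.range N, w ^ i = 0 :=
      (mul_eq_zero.1 h1).resolve_right (sub_ne_zero.2 hw1)
    have h3 := congrArg (IsLocalRing.residue (vring k₁)) h2
    rw [map_sum, map_zero] at h3
    have h4 : ∀ i ∈ Finset.range N, IsLocalRing.residue (vring k₁) (w ^ i) = 1 := by
      intro i _
      rw [map_pow, hw, map_pow, h, one_pow]
    rw [Finset.sum_congr rfl h4, Finset.sum_const, Finset.card_range, nsmul_one] at h3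
    have h5 : ((Nat.card (kap k) : ℕ) : kap k) = 0 := by
      let _ : Fintype (kap k) := Fintype.ofFinite _
      rw [Nat.card_eq_fintype_card]
      exact FiniteField.cast_card_eq_zero (kap k)
    have h6 : ((Nat.card (kap k) : ℕ) : kap k₁) = 0 := by
      have h7 := congrArg (rinc hnorm) h5
      rwa [map_natCast, map_zero] at h7
    have h7 : ((N + 1 : ℕ) : kap k₁) = 0 := by
      have h8 : N + 1 = Nat.card (kap k) ^ n := by
        have := N_pos (k := k) hn
        omega
      rw [h8, Nat.cast_pow, h6, zero_pow (by omega)]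
    rw [Nat.cast_add, h3, Nat.cast_one, zero_add] at h7
    exact one_ne_zero h7

/-- the value of a polynomial in the valuation ring -/
lemma val_coe (F : (vring k)[X]) (y : vring k₁) :
    ((F.eval₂ (vinc hnorm) y : vring k₁) : k₁) =
      aeval (y : k₁) (F.map (vring k).subtype) := by
  have h1 := hom_eval₂ F (vinc hnorm) (vring k₁).subtype y
  rw [aeval_def, eval₂_map]
  exact h1

omit [ProperSpace k] in
lemma residue_eval (F : (vring k)[X]) (y : vring k₁) :
    IsLocalRing.residue (vring k₁) (F.eval₂ (vinc hnorm) y) =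
      (F.map (IsLocalRing.residue (vring k))).eval₂ (rinc hnorm)
        (IsLocalRing.residue (vring k₁) y) := by
  rw [hom_eval₂, eval₂_map]
  rfl

include hnorm hn hζ

/-- **The value of a polynomial at `ζ` is the value of a constant.** -/
theorem norm_eval (f : k[X]) (hf : f ≠ 0) (hdeg : f.natDegree < n) :
    ∃ c : k, c ≠ 0 ∧ ‖aeval ζ f‖ = ‖c‖ := by
  classical
  let _ : Fintype (kap k) := Fintype.ofFinite _
  let _ : Algebra (kap k) (kap k₁) := (rinc hnorm).toAlgebra
  obtain ⟨i0, hi0, hmax⟩ := Finset.exists_max_image f.support (fun i => ‖f.coeff i‖)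
    (by rwa [Finset.nonempty_iff_ne_empty, Ne, support_eq_empty])
  set c := f.coeff i0 with hc
  have hc0 : c ≠ 0 := mem_support_iff.1 hi0
  have hcpos : 0 < ‖c‖ := norm_pos_iff.2 hc0
  have hle : ∀ i, ‖f.coeff i‖ ≤ ‖c‖ := by
    intro i
    by_cases h : i ∈ f.support
    · exact hmax i h
    · rw [notMem_support_iff.1 h, norm_zero]; exact norm_nonneg _
  set r0 : k[X] := C c⁻¹ * f with hr0'
  have hrr0 : f = C c * r0 := by
    rw [hr0', ← mul_assoc, ← C_mul, mul_inv_cancel₀ hc0, C_1, one_mul]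
  have hlift : r0 ∈ lifts (vring k).subtype := by
    rw [lifts_iff_coeff_lifts]
    intro m
    have h1 : ‖r0.coeff m‖ ≤ 1 := by
      rw [hr0', coeff_C_mul, norm_mul, norm_inv, inv_mul_le_iff₀ hcpos, mul_one]
      exact hle m
    exact ⟨⟨_, (mem_vring _).2 h1⟩, rfl⟩
  obtain ⟨R0, hR0, hR0deg⟩ := exists_natDegree_eq_of_mem_lifts hlift
  have hbar0 : R0.map (IsLocalRing.residue (vring k)) ≠ 0 := by
    intro h
    have h1 := congrArg (fun q => coeff q i0) h
    simp only [coeff_map, coeff_zero] at h1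
    rw [residue_eq_zero] at h1
    have h2 : ((R0.coeff i0 : vring k) : k) = r0.coeff i0 := by
      rw [← hR0, coeff_map]; rfl
    rw [h2, hr0', coeff_C_mul, ← hc, inv_mul_cancel₀ hc0, norm_one] at h1
    exact lt_irrefl _ h1
  have hbardeg : (R0.map (IsLocalRing.residue (vring k))).natDegree < n := by
    refine lt_of_le_of_lt natDegree_map_le ?_
    rw [hR0deg, hr0']
    exact lt_of_le_of_lt (natDegree_C_mul_le _ _) hdeg
  have hprim : IsPrimitiveRoot (IsLocalRing.residue (vring k₁) (zO hn hζ))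
      (Fintype.card (kap k) ^ n - 1) := by
    rw [← Nat.card_eq_fintype_card]
    exact prim_residue hnorm hn hζ
  have hne : IsLocalRing.residue (vring k₁) (R0.eval₂ (vinc hnorm) (zO hn hζ)) ≠ 0 := by
    rw [residue_eval]
    intro h0
    have h1 := le_natDegree hn hprim _ hbar0 h0
    omega
  rw [Ne, residue_eq_zero, not_lt] at hne
  have h1 : ‖((R0.eval₂ (vinc hnorm) (zO hn hζ) : vring k₁) : k₁)‖ = 1 :=
    le_antisymm ((mem_vring _).1 (SetLike.coe_mem _)) hne
  rw [val_coe, hR0] at h1
  refine ⟨c, hc0, ?_⟩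
  have h2 : aeval ζ r0 = aeval ((zO hn hζ : vring k₁) : k₁) r0 := rfl
  rw [hrr0, map_mul, aeval_C, norm_mul, hnorm, h2, h1, mul_one]

/-- **Conjugates of `ζ`.** -/
theorem conj_zeta (σ : k₁ ≃ₐ[k] k₁) (hσ : ∀ x, ‖σ x‖ = ‖x‖) :
    ∃ i, σ ζ = ζ ^ (Nat.card (kap k) ^ i) := by
  classical
  let _ : Fintype (kap k) := Fintype.ofFinite _
  let _ : Algebra (kap k) (kap k₁) := (rinc hnorm).toAlgebra
  have hN := N_pos (k := k) hn
  have hprim' := prim_residue hnorm hn hζ
  have hprim : IsPrimitiveRoot (IsLocalRing.residue (vring k₁) (zO hn hζ))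
      (Fintype.card (kap k) ^ n - 1) := by
    rw [← Nat.card_eq_fintype_card]
    exact hprim'
  obtain ⟨P, hP⟩ := map_surjective (IsLocalRing.residue (vring k)) IsLocalRing.residue_surjective
    (minpoly (kap k) (IsLocalRing.residue (vring k₁) (zO hn hζ)))
  -- the value at `ζ` is small
  have h1 : IsLocalRing.residue (vring k₁) (P.eval₂ (vinc hnorm) (zO hn hζ)) = 0 := by
    rw [residue_eval, hP]
    exact minpoly.aeval (kap k) _
  rw [residue_eq_zero, val_coe] at h1
  -- the value at `σ ζ` is small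
  have hσζ : ‖σ ζ‖ ≤ 1 := by rw [hσ]; exact (norm_zeta_eq hn hζ).le
  set y : vring k₁ := ⟨σ ζ, (mem_vring _).2 hσζ⟩ with hy
  have h2 : IsLocalRing.residue (vring k₁) (P.eval₂ (vinc hnorm) y) = 0 := by
    rw [residue_eq_zero, val_coe]
    have h3 : aeval (y : k₁) (P.map (vring k).subtype) =
        σ (aeval ζ (P.map (vring k).subtype)) := by
      have h4 := Polynomial.aeval_algHom_apply (σ : k₁ →ₐ[k] k₁) ζ (P.map (vring k).subtype)
      exact h4
    rw [h3, hσ]
    exact h1
  rw [residue_eval, hP] at h2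
  obtain ⟨i, hi⟩ := exists_frob hn hprim _ h2
  -- `σ ζ` is a power of `ζ`
  have : NeZero (Nat.card (kap k) ^ n - 1) := ⟨hN.ne'⟩
  obtain ⟨a, ha, haζ⟩ := hζ.eq_pow_of_pow_eq_one (ξ := σ ζ) (by
    rw [← map_pow, hζ.pow_eq_one, map_one])
  refine ⟨i, ?_⟩
  have h3 : y = (zO hn hζ) ^ a := Subtype.ext haζ.symm
  rw [h3, map_pow, ← Nat.card_eq_fintype_card] at hi
  set r := Nat.card (kap k) ^ i % (Nat.card (kap k) ^ n - 1) with hr
  have h4 : (IsLocalRing.residue (vring k₁) (zO hn hζ)) ^ a =
      (IsLocalRing.residue (vring k₁) (zO hn hζ)) ^ r := by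
    rw [hi, hr]
    conv_rhs => rw [hprim'.eq_orderOf, pow_mod_orderOf]
  have h5 : a = r := hprim'.pow_inj ha (Nat.mod_lt _ hN) h4
  rw [← haζ, h5, hr]
  conv_lhs => rw [hζ.eq_orderOf, pow_mod_orderOf]

end normed

end P025H511
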